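import Vale.Agent.P092.H414.StmtCoef
import Vale.Agent.P092.H184.LatMain
import Vale.Agent.P092.H184.LatProd
import Vale.Agent.P092.H184.FG

/-!
# P092: canonical isomorphisms `L(Λ) ≅ L(Γ)^t` and the exponential dichotomy
-/

namespace Vale.Agent.Results.P092.ExpDichotomy

open Vale.Agent.P092.Stmt
open scoped ENNReal

/-- For an isomorphism `Φ` of `L(Λ)` onto an amplification `p M_n(L(Γ)) p` of `L(Γ)` let
`f(g) = ∑_{s ∈ Λ} ∑_{i,j} |τ(u_g^* Φ(v_s)_{ij})|⁴` (this is `Φ.fourth g`), `g ∈ Γ`.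

1. For all ICC groups `Γ` (countable) and `Λ`: `Φ` is canonical (in particular `t = 1`, `Λ ≅ Γ`)
   if and only if `f` is not a coefficient of a unitary representation of `Γ` without nonzero
   invariant vectors.
2. If `Γ` is a countable ICC group with property (T), then `Γ` is finitely generated, and for
   every finite generating set `S` containing `1` there is `c < 1` such that for all ICC groups
   `Λ` and all `Φ`, exactly one of the following holds: `Φ` is canonical and the averages of `f`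
   over the words of length `k` in `S` are bounded below by a positive constant; or `Φ` is not
   canonical and these averages are at most `c^k f(1)` for all `k`.
3. A lattice in a finite product of locally compact second countable groups with property (T) is
   countable and has property (T), so that 2 applies if it is ICC. -/
theorem result :
    (∀ (Γ : Type) [Group Γ] [Countable Γ], IsICC Γ → ∀ (Λ : Type) [Group Λ], IsICC Λ →
      ∀ (n : ℕ) (Φ : AmpIso Γ Λ n), Φ.IsCanonical ↔ ¬ IsCoefNoInv Φ.fourth) ∧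
    (∀ (Γ : Type) [Group Γ] [Countable Γ], IsICC Γ → PropertyT Γ →
      (∃ S : Finset Γ, (1 : Γ) ∈ S ∧ Subgroup.closure (S : Set Γ) = ⊤) ∧
      ∀ S : Finset Γ, (1 : Γ) ∈ S → Subgroup.closure (S : Set Γ) = ⊤ →
        ∃ c : ℝ≥0∞, c < 1 ∧ ∀ (Λ : Type) [Group Λ], IsICC Λ → ∀ (n : ℕ) (Φ : AmpIso Γ Λ n),
          (Φ.IsCanonical ∧ ∃ ε : ℝ≥0∞, ε ≠ 0 ∧ ∀ k : ℕ, ε ≤ walkAvg S k Φ.fourth) ∨
          (¬ Φ.IsCanonical ∧ ∀ k : ℕ, walkAvg S k Φ.fourth ≤ c ^ k * Φ.fourth 1)) ∧
    (∀ (r : ℕ) (G : Fin r → Type) [∀ i, Group (G i)] [∀ i, TopologicalSpace (G i)]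
      [∀ i, IsTopologicalGroup (G i)] [∀ i, LocallyCompactSpace (G i)]
      [∀ i, SecondCountableTopology (G i)] [∀ i, T2Space (G i)],
      (∀ i, TopPropertyT (G i)) → ∀ Γ : Subgroup (∀ i, G i), IsLattice Γ →
        Countable Γ ∧ PropertyT Γ) :=
  ⟨fun _ _ _ h _ _ hΛ _ Φ => Φ.isCanonical_iff h hΛ,
    fun _ _ _ h hT => ⟨hT.exists_generating, fun S h1 hS => PropertyT.exclusive h hT S h1 hS⟩,
    fun _ _ _ _ _ _ _ _ hG _ hΓ => ⟨hΓ.countable, hΓ.propertyT (TopPropertyT.pi hG)⟩⟩

end Vale.Agent.Results.P092.ExpDichotomy
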