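import Vale.Agent.P092.H414.RootH

/-!
# P092: root subgroup algebras and canonical isomorphisms `L(Λ) ≅ L(Γ)`
-/

namespace Vale.Agent.Results.P092.RootAlgebras

open Vale.Agent.P092.Stmt

/-- Let `Φ : L(Λ) ≅ p M_n(L(Γ)) p`, `Λ` ICC, and let `w` be a frame: a column over `L(Γ)` with
`w^* w = 1`, `w w^* = p` (so `t = 1`). Put `V_s = w^* Φ(v_s) w ∈ L(Γ)` for `s ∈ Λ`.

1. (a) If `(P, Q)` is a Heisenberg pair of subgroups of `Γ` and both `L(P)` and `L(Q)` contain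
   infinitely many of the unitaries `V_s`, then every `V_s ∈ L(P)` is a scalar multiple of some
   `u_a`, `a ∈ P`.
   (b) Let `Q` be a subgroup of `Γ` such that `{q g q⁻¹ : q ∈ Q}` is infinite for all `g ≠ 1` in
   `Γ`. If `u_q` and `u_{g q g⁻¹}` are scalar multiples of some `V_s` for all `q ∈ Q`, so is `u_g`.
   (c) If every `u_g` is a scalar multiple of some `V_s`, then `Φ` is canonical.
2. Let `Γ` be an ICC quotient by a central subgroup of a subgroup `G` of `GL_N(K)`, `N ≥ 3`, `K` the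
   fraction field of a domain `R`, where `G` contains all `1 + k r E_ij`, `r ∈ R`, for some
   `k ≠ 0` in `R`; let `A_i`, `i` in `ℤ/N`, be the root subgroup at `(i, i + 1)`. Then `Φ` is
   canonical if and only if for some frame `w` every `L(A_i)` contains infinitely many `V_s` and,
   for some `i` and some `κ ≠ 0` in `R`, every element of `A_i` coming from `1 + κ r E_{i,i+1}`,
   `r ∈ R`, is in the support of some `V_s ∈ L(A_i)`.
3. For `R = ℤ`, `K = ℚ` the last condition may be dropped: `Φ` is canonical if and only if for some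
   frame `w` every `L(A_i)`, `i` in `ℤ/N`, contains infinitely many `V_s`. -/
theorem result :
    (∀ (Γ Λ : Type) [Group Γ] [Group Λ], IsICC Λ → ∀ (n : ℕ) (Φ : AmpIso Γ Λ n) (w : Fin n → B Γ),
      Φ.IsFrame w →
        (∀ P Q : Subgroup Γ, HeisPair P Q → Φ.Meets w P → Φ.Meets w Q →
          ∀ s, Φ.V w s ∈ LS (P : Set Γ) → ∃ a ∈ P, ∃ ζ : ℂ, Φ.V w s = ζ • u a) ∧
        (∀ Q : Subgroup Γ, (∀ g : Γ, g ≠ 1 → {x | ∃ q ∈ Q, x = q * g * q⁻¹}.Infinite) →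
          (∀ q ∈ Q, Φ.IsCan w q) →
            ∀ g : Γ, (∀ q ∈ Q, Φ.IsCan w (g * q * g⁻¹)) → Φ.IsCan w g) ∧
        ((∀ g, Φ.IsCan w g) → Φ.IsCanonical)) ∧
    (∀ (R K : Type) [CommRing R] [IsDomain R] [Field K] [Algebra R K] [IsFractionRing R K] (m : ℕ)
      (Γ Λ : Type) [Group Γ] [Group Λ] (D : ElemQuot R K (m + 3) Γ), IsICC Γ → IsICC Λ →
      ∀ (n : ℕ) (Φ : AmpIso Γ Λ n),
        (Φ.IsCanonical ↔ ∃ w, Φ.IsFrame w ∧ (∀ i, Φ.Meets w (D.root i (i + 1))) ∧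
          ∃ i κ, κ ≠ 0 ∧ ∀ r, ∀ g ∈ D.elt i (i + 1) (κ * r),
            ∃ s, Φ.V w s ∈ LS (D.root i (i + 1)) ∧ coef (Φ.V w s) g ≠ 0)) ∧
    (∀ (m : ℕ) (Γ Λ : Type) [Group Γ] [Group Λ] (D : ElemQuot ℤ ℚ (m + 3) Γ), IsICC Γ → IsICC Λ →
      ∀ (n : ℕ) (Φ : AmpIso Γ Λ n),
        (Φ.IsCanonical ↔ ∃ w, Φ.IsFrame w ∧ ∀ i, Φ.Meets w (D.root i (i + 1)))) := by
  refine ⟨?_, ?_, ?_⟩
  · intro Γ Λ _ _ hΛ n Φ w hw
    refine ⟨fun P Q h hP hQ s hs => hw.heis hΛ h hP hQ s hs, fun Q hQ hQw g hg =>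
      hw.commens hΛ Q hQ hQw g hg, hw.isCanonical hΛ⟩
  · intro R K _ _ _ _ _ m Γ Λ _ _ D hicc hΛ n Φ
    rw [root_criterion (show 3 ≤ m + 3 by omega) D.k_ne_zero D.mem D.surjective D.ker_le hicc hΛ Φ]
    constructor
    · rintro ⟨w, hw, ha, i, κ, hκ, hb⟩
      refine ⟨w, hw, ha, i, κ, hκ, ?_⟩
      rintro r _ ⟨x, hx, rfl⟩
      exact hb r x hx
    · rintro ⟨w, hw, ha, i, κ, hκ, hb⟩
      exact ⟨w, hw, ha, i, κ, hκ, fun r x hx => hb r _ ⟨x, hx, rfl⟩⟩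
  · intro m Γ Λ _ _ D hicc hΛ n Φ
    exact root_criterion_int (show 3 ≤ m + 3 by omega) D.k_ne_zero
      (fun i j hij => by
        have h := D.mem i j hij 1
        simpa only [mul_one, algebraMap_int_eq, eq_intCast] using h) D.surjective D.ker_le hicc hΛ Φ

end Vale.Agent.Results.P092.RootAlgebras
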